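import Mathlib

/-! P116: the Riemann sphere, conformal equivalence, circle domains. -/

open Set OnePoint
open scoped Pointwise

noncomputable section

namespace Vale.Agent.P116.T

/-- The two standard parametrisations `z ↦ z` and `z ↦ 1 / z` of the sphere. -/
def ch (i : Bool) (z : ℂ) : OnePoint ℂ :=
  if i then (if z = 0 then ∞ else ((z⁻¹ : ℂ) : OnePoint ℂ)) else (z : OnePoint ℂ)

/-- The two standard coordinates, inverse to `ch` on its range. -/
def co (i : Bool) (x : OnePoint ℂ) : ℂ := x.elim 0 fun z => if i then z⁻¹ else z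

/-- Holomorphic at a point, in all standard charts. -/
def HolAt (f : OnePoint ℂ → OnePoint ℂ) (x : OnePoint ℂ) : Prop :=
  ContinuousAt f x ∧ ∀ (i j : Bool) (z : ℂ), ch i z = x → f x ∈ range (ch j) →
    DifferentiableAt ℂ (co j ∘ f ∘ ch i) z

/-- A holomorphic bijection from `G` onto `Ω` exists. -/
def ConfEq (G Ω : Set (OnePoint ℂ)) : Prop :=
  ∃ f : OnePoint ℂ → OnePoint ℂ, BijOn f G Ω ∧ ∀ x ∈ G, HolAt f x

/-- A nonempty connected open set. -/
def IsDomain (G : Set (OnePoint ℂ)) : Prop := IsOpen G ∧ IsConnected G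

/-- The image of the closed unit disc under a Moebius transformation. -/
def IsDisk (D : Set (OnePoint ℂ)) : Prop :=
  ∃ g : GL (Fin 2) ℂ, D = (fun z : ℂ => g • (z : OnePoint ℂ)) '' Metric.closedBall 0 1

/-- Every complementary component is a point or a closed round disc. -/
def IsCircleDomain (Ω : Set (OnePoint ℂ)) : Prop :=
  IsDomain Ω ∧ ∀ x ∈ Ωᶜ, (∃ p, connectedComponentIn Ωᶜ x = {p}) ∨
    IsDisk (connectedComponentIn Ωᶜ x)

end Vale.Agent.P116.T
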